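import Mathlib

/-!
# The hybrid argument on one fixed matrix space
-/

open Matrix
open scoped ComplexOrder MatrixOrder

set_option linter.all false

namespace Vale.Agent.P372.H318

variable {Ω : Type} [Fintype Ω] [DecidableEq Ω] {ι : Type}

/-- `Z` is a Hermitian corner of `X`, `Y`. -/
def Cor (X Y Z : Matrix Ω Ω ℂ) : Prop := (fromBlocks X Z Z Y).PosSemidef

/-- `2`-positive maps. -/
def BP (f : Matrix Ω Ω ℂ →ₗ[ℂ] Matrix Ω Ω ℂ) : Prop :=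
  ∀ X Z Z' Y, (fromBlocks X Z Z' Y).PosSemidef →
    (fromBlocks (f X) (f Z) (f Z') (f Y)).PosSemidef

/-- Positive functionals. -/
def PF (l : Matrix Ω Ω ℂ →ₗ[ℂ] ℂ) : Prop := ∀ X, X.PosSemidef → 0 ≤ (l X).re

/-- The supremum over the Hermitian corners. -/
noncomputable def SS (l : Matrix Ω Ω ℂ →ₗ[ℂ] ℂ) (X Y : Matrix Ω Ω ℂ) : ℝ :=
  sSup {r | ∃ Z, Cor X Y Z ∧ r = (l Z).re}

theorem blocks_psd_iff {X Z Z' Y : Matrix Ω Ω ℂ} (h : (fromBlocks X Z Z' Y).PosSemidef) :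
    X.PosSemidef ∧ Y.PosSemidef := by
  constructor
  · exact h.submatrix (Sum.inl : Ω → Ω ⊕ Ω)
  · exact h.submatrix (Sum.inr : Ω → Ω ⊕ Ω)

theorem exists_gram {X : Matrix Ω Ω ℂ} (h : X.PosSemidef) : ∃ C : Matrix Ω Ω ℂ, X = Cᴴ * C := by
  obtain ⟨C, hC⟩ := CStarAlgebra.nonneg_iff_eq_star_mul_self.mp h.nonneg
  exact ⟨C, by rw [hC, star_eq_conjTranspose]⟩

theorem blocks_zero {X Y : Matrix Ω Ω ℂ} (hX : X.PosSemidef) (hY : Y.PosSemidef) :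
    (fromBlocks X 0 0 Y).PosSemidef := by
  obtain ⟨B, hB⟩ := exists_gram hX
  obtain ⟨C, hC⟩ := exists_gram hY
  have e : fromBlocks X 0 0 Y = (fromBlocks B 0 0 C)ᴴ * fromBlocks B 0 0 C := by
    rw [fromBlocks_conjTranspose, fromBlocks_multiply]
    simp [hB, hC]
  rw [e]
  exact posSemidef_conjTranspose_mul_self _

theorem Cor.psd {X Y Z : Matrix Ω Ω ℂ} (h : Cor X Y Z) : X.PosSemidef ∧ Y.PosSemidef :=
  blocks_psd_iff h

theorem cor_zero {X Y : Matrix Ω Ω ℂ} (hX : X.PosSemidef) (hY : Y.PosSemidef) : Cor X Y 0 :=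
  blocks_zero hX hY

theorem Cor.add {X Y Z X' Y' Z' : Matrix Ω Ω ℂ} (h : Cor X Y Z) (h' : Cor X' Y' Z') :
    Cor (X + X') (Y + Y') (Z + Z') := by
  have := PosSemidef.add h h'
  rw [fromBlocks_add] at this
  exact this

theorem Cor.smul {X Y Z : Matrix Ω Ω ℂ} (h : Cor X Y Z) {a : ℝ} (ha : 0 ≤ a) :
    Cor ((a : ℂ) • X) ((a : ℂ) • Y) ((a : ℂ) • Z) := by
  have h2 : (0 : ℂ) ≤ (a : ℂ) := by exact_mod_cast ha
  have := PosSemidef.smul h h2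
  rw [fromBlocks_smul] at this
  exact this

theorem Cor.sub_psd {X Y Z : Matrix Ω Ω ℂ} (h : Cor X Y Z) : (X + Y - 2 • Z).PosSemidef := by
  have h1 := PosSemidef.conjTranspose_mul_mul_same h
    (fromBlocks (1 : Matrix Ω Ω ℂ) 0 (-1) 0 : Matrix (Ω ⊕ Ω) (Ω ⊕ Ω) ℂ)
  have e : (fromBlocks (1 : Matrix Ω Ω ℂ) 0 (-1) 0 : Matrix (Ω ⊕ Ω) (Ω ⊕ Ω) ℂ)ᴴ *
      fromBlocks X Z Z Y * fromBlocks 1 0 (-1) 0 = fromBlocks (X + Y - 2 • Z) 0 0 0 := by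
    rw [fromBlocks_conjTranspose, fromBlocks_multiply, fromBlocks_multiply]
    simp only [conjTranspose_one, conjTranspose_neg, conjTranspose_zero, Matrix.one_mul,
      Matrix.neg_mul, Matrix.zero_mul, Matrix.mul_one, Matrix.mul_neg, Matrix.mul_zero, add_zero]
    congr 1
    · rw [two_smul]
      abel
    · simp
  rw [e] at h1
  exact (blocks_psd_iff h1).1

theorem BP.psd {f : Matrix Ω Ω ℂ →ₗ[ℂ] Matrix Ω Ω ℂ} (hf : BP f) {X : Matrix Ω Ω ℂ}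
    (hX : X.PosSemidef) : (f X).PosSemidef :=
  (blocks_psd_iff (hf _ _ _ _ (blocks_zero hX hX))).1

theorem BP.cor {f : Matrix Ω Ω ℂ →ₗ[ℂ] Matrix Ω Ω ℂ} (hf : BP f) {X Y Z : Matrix Ω Ω ℂ}
    (h : Cor X Y Z) : Cor (f X) (f Y) (f Z) := hf _ _ _ _ h

theorem BP.pf {f : Matrix Ω Ω ℂ →ₗ[ℂ] Matrix Ω Ω ℂ} (hf : BP f)
    {l : Matrix Ω Ω ℂ →ₗ[ℂ] ℂ} (hl : PF l) : PF (l ∘ₗ f) := fun X hX => hl _ (hf.psd hX)

theorem cor_bound {l : Matrix Ω Ω ℂ →ₗ[ℂ] ℂ} (hl : PF l) {X Y Z : Matrix Ω Ω ℂ}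
    (h : Cor X Y Z) : 2 * (l Z).re ≤ (l X).re + (l Y).re := by
  have h1 := hl _ h.sub_psd
  rw [map_sub, map_add, map_nsmul] at h1
  simp at h1
  linarith

theorem le_SS {l : Matrix Ω Ω ℂ →ₗ[ℂ] ℂ} (hl : PF l) {X Y Z : Matrix Ω Ω ℂ}
    (h : Cor X Y Z) : (l Z).re ≤ SS l X Y := by
  refine le_csSup ⟨((l X).re + (l Y).re) / 2, ?_⟩ ⟨Z, h, rfl⟩
  rintro r ⟨Z', h', rfl⟩
  have := cor_bound hl h'
  linarith

theorem SS_le {l : Matrix Ω Ω ℂ →ₗ[ℂ] ℂ} {X Y : Matrix Ω Ω ℂ} (hX : X.PosSemidef)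
    (hY : Y.PosSemidef) {b : ℝ} (h : ∀ Z, Cor X Y Z → (l Z).re ≤ b) : SS l X Y ≤ b := by
  refine csSup_le ⟨(l 0).re, 0, cor_zero hX hY, rfl⟩ ?_
  rintro r ⟨Z, hZ, rfl⟩
  exact h Z hZ

theorem SS_nonneg {l : Matrix Ω Ω ℂ →ₗ[ℂ] ℂ} (hl : PF l) {X Y : Matrix Ω Ω ℂ}
    (hX : X.PosSemidef) (hY : Y.PosSemidef) : 0 ≤ SS l X Y := by
  have := le_SS hl (cor_zero hX hY)
  simpa using this

theorem step_mono {f : Matrix Ω Ω ℂ →ₗ[ℂ] Matrix Ω Ω ℂ} (hf : BP f)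
    {l : Matrix Ω Ω ℂ →ₗ[ℂ] ℂ} (hl : PF l) {X Y : Matrix Ω Ω ℂ}
    (hX : X.PosSemidef) (hY : Y.PosSemidef) : SS (l ∘ₗ f) X Y ≤ SS l (f X) (f Y) :=
  SS_le hX hY fun Z hZ => le_SS hl (hf.cor hZ)

theorem step_four {E P : Matrix Ω Ω ℂ →ₗ[ℂ] Matrix Ω Ω ℂ} (hE : BP E) (hP : BP P)
    (hD : BP ((2 : ℂ) • E - P)) {l : Matrix Ω Ω ℂ →ₗ[ℂ] ℂ} (hl : PF l)
    {X Y : Matrix Ω Ω ℂ} (hX : X.PosSemidef) (hY : Y.PosSemidef) :
    SS l (P X) (P Y) + 2 * SS (l ∘ₗ E) X Y ≤ 2 * SS l (E X) (E Y) + SS (l ∘ₗ P) X Y := by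
  have key : ∀ Z₁, Cor (P X) (P Y) Z₁ → ∀ Z₂, Cor X Y Z₂ →
      (l Z₁).re + 2 * ((l ∘ₗ E) Z₂).re ≤ 2 * SS l (E X) (E Y) + SS (l ∘ₗ P) X Y := by
    intro Z₁ h₁ Z₂ h₂
    have h3 := h₁.add (hD.cor h₂)
    have h4 := h3.smul (a := 1 / 2) (by norm_num)
    have e : ∀ X : Matrix Ω Ω ℂ, (((1 / 2 : ℝ) : ℂ)) • (P X + ((2 : ℂ) • E - P) X) = E X := by
      intro X
      rw [LinearMap.sub_apply, LinearMap.smul_apply, add_sub_cancel, smul_smul]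
      norm_num
    rw [e, e] at h4
    have h5 := le_SS hl h4
    have h6 := le_SS (hP.pf hl) h₂
    rw [map_smul, map_add, LinearMap.sub_apply, LinearMap.smul_apply, map_sub, map_smul] at h5
    simp only [LinearMap.comp_apply, smul_eq_mul] at h5 h6 ⊢
    simp at h5
    linarith
  have h1 : ∀ Z₂, Cor X Y Z₂ → SS l (P X) (P Y) ≤
      2 * SS l (E X) (E Y) + SS (l ∘ₗ P) X Y - 2 * ((l ∘ₗ E) Z₂).re := fun Z₂ h₂ =>
    SS_le (hP.psd hX) (hP.psd hY) fun Z₁ h₁ => by linarith [key Z₁ h₁ Z₂ h₂]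
  have h2 : SS (l ∘ₗ E) X Y ≤
      (2 * SS l (E X) (E Y) + SS (l ∘ₗ P) X Y - SS l (P X) (P Y)) / 2 :=
    SS_le hX hY fun Z₂ h₂ => by linarith [h1 Z₂ h₂]
  linarith

section hybrid

variable (c : ℝ) (E P : ι → (Matrix Ω Ω ℂ →ₗ[ℂ] Matrix Ω Ω ℂ))

/-- The start of the hybrid. -/
noncomputable def hs : List ι → (Matrix Ω Ω ℂ →ₗ[ℂ] ℂ) → Matrix Ω Ω ℂ → Matrix Ω Ω ℂ → ℝ
  | [], l, X, Y => SS l X Y
  | i :: L, l, X, Y => (1 - c) * hs L (l ∘ₗ E i) X Y + c * hs L l (P i X) (P i Y)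

/-- The end of the hybrid. -/
noncomputable def he : List ι → (Matrix Ω Ω ℂ →ₗ[ℂ] ℂ) → Matrix Ω Ω ℂ → Matrix Ω Ω ℂ → ℝ
  | [], l, X, Y => SS l X Y
  | i :: L, l, X, Y => (1 - c) * he L l (E i X) (E i Y) + c * he L (l ∘ₗ P i) X Y

/-- The weights. -/
noncomputable def wt : List ι → (Matrix Ω Ω ℂ →ₗ[ℂ] ℂ) → Matrix Ω Ω ℂ → ℝ
  | [], l, X => (l X).re
  | i :: L, l, X => (1 - c) * wt L l (E i X) + c * wt L (l ∘ₗ P i) X

/-- The assumptions on the site maps. -/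
structure Sites : Prop where
  hE : ∀ i, BP (E i)
  hP : ∀ i, BP (P i)
  hD : ∀ i, BP ((2 : ℂ) • E i - P i)
  hEE : ∀ i j, i ≠ j → ∀ X, E i (E j X) = E j (E i X)
  hEP : ∀ i j, i ≠ j → ∀ X, E i (P j X) = P j (E i X)
  hPP : ∀ i j, i ≠ j → ∀ X, P i (P j X) = P j (P i X)

variable {c E P}

theorem he_four (H : Sites E P) (hc0 : 0 ≤ c) (hc1 : c ≤ 1) (i : ι) (L : List ι) (hi : i ∉ L) :
    ∀ (l : Matrix Ω Ω ℂ →ₗ[ℂ] ℂ), PF l → ∀ X Y : Matrix Ω Ω ℂ, X.PosSemidef → Y.PosSemidef →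
    he c E P L l (P i X) (P i Y) + 2 * he c E P L (l ∘ₗ E i) X Y ≤
      2 * he c E P L l (E i X) (E i Y) + he c E P L (l ∘ₗ P i) X Y := by
  induction L with
  | nil => exact fun l hl X Y hX hY => step_four (H.hE i) (H.hP i) (H.hD i) hl hX hY
  | cons j L ih =>
    intro l hl X Y hX hY
    have hij : i ≠ j := fun h => hi (by rw [h]; exact List.mem_cons_self)
    have ih' := ih (fun h => hi (List.mem_cons_of_mem _ h))
    have h1 := ih' l hl (E j X) (E j Y) ((H.hE j).psd hX) ((H.hE j).psd hY)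
    have h2 := ih' (l ∘ₗ P j) ((H.hP j).pf hl) X Y hX hY
    have e1 : (l ∘ₗ E i) ∘ₗ P j = (l ∘ₗ P j) ∘ₗ E i := by
      refine LinearMap.ext fun Z => ?_
      simp only [LinearMap.comp_apply, H.hEP i j hij]
    have e2 : (l ∘ₗ P i) ∘ₗ P j = (l ∘ₗ P j) ∘ₗ P i := by
      refine LinearMap.ext fun Z => ?_
      simp only [LinearMap.comp_apply, H.hPP i j hij]
    simp only [he]
    rw [e1, e2, H.hEE j i hij.symm X, H.hEE j i hij.symm Y, H.hEP j i hij.symm X,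
      H.hEP j i hij.symm Y]
    nlinarith [mul_le_mul_of_nonneg_left h1 (by linarith : (0 : ℝ) ≤ 1 - c),
      mul_le_mul_of_nonneg_left h2 hc0]

theorem he_mono (H : Sites E P) (hc0 : 0 ≤ c) (hc1 : c ≤ 1) (i : ι) (L : List ι) (hi : i ∉ L) :
    ∀ (l : Matrix Ω Ω ℂ →ₗ[ℂ] ℂ), PF l → ∀ X Y : Matrix Ω Ω ℂ, X.PosSemidef → Y.PosSemidef →
    he c E P L (l ∘ₗ E i) X Y ≤ he c E P L l (E i X) (E i Y) := by
  induction L with
  | nil => exact fun l hl X Y hX hY => step_mono (H.hE i) hl hX hY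
  | cons j L ih =>
    intro l hl X Y hX hY
    have hij : i ≠ j := fun h => hi (by rw [h]; exact List.mem_cons_self)
    have ih' := ih (fun h => hi (List.mem_cons_of_mem _ h))
    have h1 := ih' l hl (E j X) (E j Y) ((H.hE j).psd hX) ((H.hE j).psd hY)
    have h2 := ih' (l ∘ₗ P j) ((H.hP j).pf hl) X Y hX hY
    have e1 : (l ∘ₗ E i) ∘ₗ P j = (l ∘ₗ P j) ∘ₗ E i := by
      refine LinearMap.ext fun Z => ?_
      simp only [LinearMap.comp_apply, H.hEP i j hij]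
    simp only [he]
    rw [e1, H.hEE j i hij.symm X, H.hEE j i hij.symm Y]
    nlinarith [mul_le_mul_of_nonneg_left h1 (by linarith : (0 : ℝ) ≤ 1 - c),
      mul_le_mul_of_nonneg_left h2 hc0]

theorem hs_le_he (H : Sites E P) (hc0 : 0 ≤ c) (hc1 : 3 * c ≤ 1) (L : List ι) (hL : L.Nodup) :
    ∀ (l : Matrix Ω Ω ℂ →ₗ[ℂ] ℂ), PF l → ∀ X Y : Matrix Ω Ω ℂ, X.PosSemidef → Y.PosSemidef →
    hs c E P L l X Y ≤ he c E P L l X Y := by
  induction L with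
  | nil => exact fun l hl X Y hX hY => le_refl _
  | cons i L ih =>
    intro l hl X Y hX hY
    rw [List.nodup_cons] at hL
    have h1 := ih hL.2 (l ∘ₗ E i) ((H.hE i).pf hl) X Y hX hY
    have h2 := ih hL.2 l hl (P i X) (P i Y) ((H.hP i).psd hX) ((H.hP i).psd hY)
    have h3 := he_four H hc0 (by linarith) i L hL.1 l hl X Y hX hY
    have h4 := he_mono H hc0 (by linarith) i L hL.1 l hl X Y hX hY
    simp only [hs, he]
    nlinarith [mul_le_mul_of_nonneg_left h1 (by linarith : (0 : ℝ) ≤ 1 - c),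
      mul_le_mul_of_nonneg_left h2 hc0, mul_le_mul_of_nonneg_left h3 hc0,
      mul_le_mul_of_nonneg_left h4 (by linarith : (0 : ℝ) ≤ 1 - 3 * c)]

theorem wt_nonneg (H : Sites E P) (hc0 : 0 ≤ c) (hc1 : c ≤ 1) (L : List ι) :
    ∀ (l : Matrix Ω Ω ℂ →ₗ[ℂ] ℂ), PF l → ∀ X : Matrix Ω Ω ℂ, X.PosSemidef →
    0 ≤ wt c E P L l X := by
  induction L with
  | nil => exact fun l hl X hX => hl X hX
  | cons i L ih =>
    intro l hl X hX
    have h1 := ih l hl (E i X) ((H.hE i).psd hX)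
    have h2 := ih (l ∘ₗ P i) ((H.hP i).pf hl) X hX
    simp only [wt]
    have : (0 : ℝ) ≤ 1 - c := by linarith
    positivity

theorem he_nonneg (H : Sites E P) (hc0 : 0 ≤ c) (hc1 : c ≤ 1) (L : List ι) :
    ∀ (l : Matrix Ω Ω ℂ →ₗ[ℂ] ℂ), PF l → ∀ X Y : Matrix Ω Ω ℂ, X.PosSemidef → Y.PosSemidef →
    0 ≤ he c E P L l X Y := by
  induction L with
  | nil => exact fun l hl X Y hX hY => SS_nonneg hl hX hY
  | cons i L ih =>
    intro l hl X Y hX hY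
    have h1 := ih l hl (E i X) (E i Y) ((H.hE i).psd hX) ((H.hE i).psd hY)
    have h2 := ih (l ∘ₗ P i) ((H.hP i).pf hl) X Y hX hY
    simp only [he]
    have : (0 : ℝ) ≤ 1 - c := by linarith
    positivity

theorem hs_nonneg (H : Sites E P) (hc0 : 0 ≤ c) (hc1 : c ≤ 1) (L : List ι) :
    ∀ (l : Matrix Ω Ω ℂ →ₗ[ℂ] ℂ), PF l → ∀ X Y : Matrix Ω Ω ℂ, X.PosSemidef → Y.PosSemidef →
    0 ≤ hs c E P L l X Y := by
  induction L with
  | nil => exact fun l hl X Y hX hY => SS_nonneg hl hX hY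
  | cons i L ih =>
    intro l hl X Y hX hY
    have h1 := ih (l ∘ₗ E i) ((H.hE i).pf hl) X Y hX hY
    have h2 := ih l hl (P i X) (P i Y) ((H.hP i).psd hX) ((H.hP i).psd hY)
    simp only [hs]
    have : (0 : ℝ) ≤ 1 - c := by linarith
    positivity

/-- two-term Cauchy-Schwarz -/
theorem two_cs {c a b x y u v : ℝ} (hc0 : 0 ≤ c) (hc1 : c ≤ 1) (hx : 0 ≤ x) (hy : 0 ≤ y)
    (hu : 0 ≤ u) (hv : 0 ≤ v) (ha : a ≤ √(x * y)) (hb : b ≤ √(u * v)) :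
    (1 - c) * a + c * b ≤ √(((1 - c) * x + c * u) * ((1 - c) * y + c * v)) := by
  have hd : (0 : ℝ) ≤ 1 - c := by linarith
  have h1 : (1 - c) * a + c * b ≤ (1 - c) * √(x * y) + c * √(u * v) :=
    add_le_add (mul_le_mul_of_nonneg_left ha hd) (mul_le_mul_of_nonneg_left hb hc0)
  refine h1.trans (Real.le_sqrt_of_sq_le ?_)
  have e1 := Real.sq_sqrt (mul_nonneg hx hy)
  have e2 := Real.sq_sqrt (mul_nonneg hu hv)
  have h2 : 2 * (√(x * y) * √(u * v)) ≤ x * v + u * y := by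
    have h3 : √(x * y) * √(u * v) = √(x * v) * √(u * y) := by
      rw [← Real.sqrt_mul (mul_nonneg hx hy), ← Real.sqrt_mul (mul_nonneg hx hv)]
      congr 1; ring
    rw [h3]
    nlinarith [sq_nonneg (√(x * v) - √(u * y)), Real.sq_sqrt (mul_nonneg hx hv),
      Real.sq_sqrt (mul_nonneg hu hy)]
  have h4 := mul_le_mul_of_nonneg_left h2 (mul_nonneg hd hc0)
  have e3 : ((1 - c) * √(x * y) + c * √(u * v)) ^ 2 = (1 - c) ^ 2 * √(x * y) ^ 2 +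
    (1 - c) * c * (2 * (√(x * y) * √(u * v))) + c ^ 2 * √(u * v) ^ 2 := by ring
  rw [e3, e1, e2]
  nlinarith

theorem he_le (H : Sites E P) (hc0 : 0 ≤ c) (hc1 : c ≤ 1)
    (Q : Matrix Ω Ω ℂ → Matrix Ω Ω ℂ → Matrix Ω Ω ℂ → Matrix Ω Ω ℂ → Prop)
    (hQE : ∀ i X Y V W, Q X Y V W → Q (E i X) (E i Y) (E i V) (E i W))
    (hQp : ∀ X Y V W, Q X Y V W →
      X.PosSemidef ∧ Y.PosSemidef ∧ V.PosSemidef ∧ W.PosSemidef)
    (hQc : ∀ X Y V W, Q X Y V W → ∀ Z, Cor X Y Z → ∀ t : ℝ, 0 < t →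
      ((t : ℂ) • V + ((t⁻¹ : ℝ) : ℂ) • W - (2 : ℂ) • Z).PosSemidef) (L : List ι) :
    ∀ (l : Matrix Ω Ω ℂ →ₗ[ℂ] ℂ), PF l → ∀ X Y V W, Q X Y V W →
    he c E P L l X Y ≤ √(wt c E P L l V * wt c E P L l W) := by
  induction L with
  | nil =>
    intro l hl X Y V W hQ
    obtain ⟨hX, hY, hV, hW⟩ := hQp X Y V W hQ
    refine SS_le hX hY fun Z hZ => ?_
    have h1 : ∀ t : ℝ, 0 < t → 2 * (l Z).re ≤ t * (l V).re + t⁻¹ * (l W).re := by
      intro t ht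
      have := hl _ (hQc X Y V W hQ Z hZ t ht)
      rw [map_sub, map_add, map_smul, map_smul, map_smul] at this
      simp only [smul_eq_mul, Complex.sub_re, Complex.add_re, Complex.re_ofReal_mul] at this
      have e : ((2 : ℂ) * l Z).re = 2 * (l Z).re := by simp
      rw [e] at this
      linarith
    have hv := hl V hV
    have hw := hl W hW
    simp only [wt]
    rcases le_or_gt (l Z).re 0 with h0 | h0
    · exact h0.trans (Real.sqrt_nonneg _)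
    refine Real.le_sqrt_of_sq_le ?_
    -- optimise t
    rcases eq_or_lt_of_le hv with hv0 | hv0
    · exfalso
      have h2 := h1 (((l W).re + 1) / (l Z).re) (by positivity)
      rw [← hv0, mul_zero, zero_add, inv_div] at h2
      have h3 : (l Z).re / ((l W).re + 1) * (l W).re ≤ (l Z).re := by
        rw [div_mul_eq_mul_div, div_le_iff₀ (by linarith)]
        nlinarith
      linarith
    · have h2 := h1 ((l Z).re / (l V).re) (by positivity)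
      rw [inv_div, div_mul_cancel₀ _ hv0.ne'] at h2
      have h3 : (l Z).re ≤ (l V).re / (l Z).re * (l W).re := by linarith
      have h4 := mul_le_mul_of_nonneg_left h3 h0.le
      have e : (l Z).re * ((l V).re / (l Z).re * (l W).re) = (l V).re * (l W).re := by
        field_simp
      rw [e] at h4
      nlinarith
  | cons i L ih =>
    intro l hl X Y V W hQ
    obtain ⟨hX, hY, hV, hW⟩ := hQp X Y V W hQ
    have h1 := ih l hl _ _ _ _ (hQE i X Y V W hQ)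
    have h2 := ih (l ∘ₗ P i) ((H.hP i).pf hl) X Y V W hQ
    simp only [he, wt]
    exact two_cs hc0 hc1 (wt_nonneg H hc0 hc1 L l hl _ ((H.hE i).psd hV))
      (wt_nonneg H hc0 hc1 L l hl _ ((H.hE i).psd hW))
      (wt_nonneg H hc0 hc1 L _ ((H.hP i).pf hl) _ hV)
      (wt_nonneg H hc0 hc1 L _ ((H.hP i).pf hl) _ hW) h1 h2

end hybrid

end Vale.Agent.P372.H318
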